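import Crest.Agent.R193.C.Osc

/-!
# R193/C/Cont: continua, the class `RR`, the flow lemma
Tool: `cut_wire` below (copied from R40/QGrid.lean; do not import that file).
-/

set_option autoImplicit false
open Set Metric Filter Topology MeasureTheory

namespace Crest.Agent.R193

open Bornology

/-- cut-wire theorem -/
theorem cut_wire {E : Type} [TopologicalSpace E] [T2Space E] {X A B : Set E} (hX : IsCompact X)
    (hA : IsClosed A) (hB : IsClosed B)
    (h : ∀ C ⊆ X, IsPreconnected C → (C ∩ A).Nonempty → (C ∩ B).Nonempty → False) :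
    ∃ X₁ X₂ : Set E, IsCompact X₁ ∧ IsCompact X₂ ∧ Disjoint X₁ X₂ ∧ X₁ ∪ X₂ = X ∧
      Disjoint X₁ B ∧ Disjoint X₂ A := by
  have : CompactSpace X := isCompact_iff_compactSpace.1 hX
  have hA' : IsCompact (((↑) : X → E) ⁻¹' A) := (hA.preimage continuous_subtype_val).isCompact
  have hB' : IsCompact (((↑) : X → E) ⁻¹' B) := (hB.preimage continuous_subtype_val).isCompact
  have key : ∀ a : X, ∃ U : Set X, IsClopen U ∧ (a.1 ∈ A → a ∈ U) ∧
      Disjoint U (((↑) : X → E) ⁻¹' B) := by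
    intro a
    by_cases ha : a.1 ∈ A
    · have hcov : ((↑) : X → E) ⁻¹' B ⊆ ⋃ s : {s : Set X // IsClopen s ∧ a ∈ s}, (s.1)ᶜ := by
        intro b hb
        rw [← compl_iInter, ← connectedComponent_eq_iInter_isClopen]
        intro hb'
        refine h (((↑) : X → E) '' connectedComponent a) (by rintro _ ⟨x, _, rfl⟩; exact x.2)
          (isPreconnected_connectedComponent.image _ continuous_subtype_val.continuousOn)
          ⟨a, ⟨a, mem_connectedComponent, rfl⟩, ha⟩ ⟨b, ⟨b, hb', rfl⟩, hb⟩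
      obtain ⟨t, ht⟩ := hB'.elim_finite_subcover _ (fun s => s.2.1.compl.isOpen) hcov
      refine ⟨⋂ s ∈ t, s.1, isClopen_biInter_finset fun s _ => s.2.1,
        fun _ => mem_iInter₂.2 fun s _ => s.2.2, disjoint_left.2 fun b hb hb' => ?_⟩
      obtain ⟨s, hs, hs'⟩ := mem_iUnion₂.1 (ht hb')
      exact hs' (mem_iInter₂.1 hb s hs)
    · exact ⟨∅, isClopen_empty, fun h => absurd h ha, empty_disjoint _⟩
  choose U hU hUa hUB using key
  obtain ⟨t, ht⟩ := hA'.elim_finite_subcover U (fun a => (hU a).isOpen)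
    (fun a ha => mem_iUnion.2 ⟨a, hUa a ha⟩)
  have hW : IsClopen (⋃ a ∈ t, U a) := isClopen_biUnion_finset fun a _ => hU a
  refine ⟨(↑) '' (⋃ a ∈ t, U a), (↑) '' (⋃ a ∈ t, U a)ᶜ,
    hW.isClosed.isCompact.image continuous_subtype_val,
    hW.compl.isClosed.isCompact.image continuous_subtype_val,
    disjoint_image_of_injective Subtype.val_injective disjoint_compl_right, ?_, ?_, ?_⟩
  · rw [← image_union, union_compl_self, image_univ, Subtype.range_coe]
  · rw [disjoint_left]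
    rintro _ ⟨x, hx, rfl⟩ hxB
    obtain ⟨a, _, ha⟩ := mem_iUnion₂.1 hx
    exact disjoint_left.1 (hUB a) ha hxB
  · rw [disjoint_left]
    rintro _ ⟨x, hx, rfl⟩ hxA
    exact hx (ht hxA)

section
variable {X : Type} [TopologicalSpace X]

theorem RR.mono {v : X → ℝ} {U U' : Set X} (h : RR v U) (hU : U' ⊆ U) : RR v U' :=
  fun s x hx hf hs => h s x (hU hx) hf (hs.trans hU)

theorem RR.affine {v : X → ℝ} {U : Set X} (h : RR v U) (c : ℝ) {m : ℝ} (hm : 0 < m) :
    RR (fun z => (v z - c) / m) U := by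
  intro s
  have e : {z | s < (v z - c) / m} = {z | s * m + c < v z} := by
    ext z
    simp only [mem_setOf_eq, lt_div_iff₀ hm, lt_sub_iff_add_lt]
  simp only [e]
  exact h _

theorem RR.comp {Y : Type} [TopologicalSpace Y] {v : X → ℝ} {U : Set X} (h : RR v U)
    (e : X ≃ₜ Y) : RR (fun y => v (e.symm y)) (e '' U) := by
  rintro s _ ⟨x, hx, rfl⟩
  have e1 : {z | s < v (e.symm z)} = e '' {z | s < v z} := by
    rw [e.image_eq_preimage_symm]
    rfl
  simp only [e1, ← e.image_frontier]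
  intro hf hs
  have hf' : x ∈ frontier {z | s < v z} := (e.injective.mem_set_image).1 hf
  rw [← e.image_connectedComponentIn hf'] at hs
  exact h s x hx hf' ((image_subset_image_iff e.injective).1 hs)

/-- the form in which `RR` is used -/
theorem RR.exists_conn {v : X → ℝ} {U B : Set X} (h : RR v U) (hB : IsPreconnected B)
    (hBU : B ⊆ U) {s : ℝ} (hs : Cut v B s) : ∃ K : Set X, IsPreconnected K ∧
      K ⊆ frontier {z | s < v z} ∧ (K ∩ B).Nonempty ∧ ∃ z ∈ K, z ∉ U := by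
  obtain ⟨x, hx, hf⟩ := hs.inter_frontier hB
  exact ⟨_, isPreconnected_connectedComponentIn, connectedComponentIn_subset _ _,
    ⟨x, mem_connectedComponentIn hf, hx⟩, not_subset.1 (h s x (hBU hx) hf)⟩

theorem contb_sub [T2Space X] {K A M B : Set X} (hK : IsCompact K) (hK' : IsPreconnected K)
    (hA : IsClosed A) (hM : IsClosed M) (hB : IsClosed B) (hc : K ⊆ A ∪ M ∪ B)
    (hd : K ∩ A ∩ B = ∅) (ha : (K ∩ A).Nonempty) (hb : (K ∩ B).Nonempty) :
    ∃ K' : Set X, IsCompact K' ∧ IsPreconnected K' ∧ K' ⊆ K ∩ M ∧ (K' ∩ A).Nonempty ∧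
      (K' ∩ B).Nonempty := by
  by_contra hn
  have hKM := hK.inter_right hM
  obtain ⟨X₁, X₂, c1, c2, d12, hu, d1, d2⟩ := cut_wire hKM hA hB fun C hC hC' h1 h2 =>
    have hs : closure C ⊆ K ∩ M := closure_minimal hC hKM.isClosed
    hn ⟨closure C, hKM.of_isClosed_subset isClosed_closure hs, hC'.closure, hs,
      h1.mono (inter_subset_inter_left _ subset_closure), h2.mono (inter_subset_inter_left _ subset_closure)⟩
  obtain ⟨y, hy, y1, y2⟩ := isPreconnected_closed_iff.1 hK' (X₁ ∪ A) (X₂ ∪ B) (c1.isClosed.union hA)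
    (c2.isClosed.union hB)
    (fun y hy => by
      rcases hc hy with (c | c) | c
      · exact Or.inl (Or.inr c)
      · have : y ∈ X₁ ∪ X₂ := hu ▸ ⟨hy, c⟩
        exact this.elim (fun k => Or.inl (Or.inl k)) fun k => Or.inr (Or.inl k)
      · exact Or.inr (Or.inr c))
    (ha.mono (inter_subset_inter_right _ subset_union_right))
    (hb.mono (inter_subset_inter_right _ subset_union_right))
  rcases y1 with y1 | y1 <;> rcases y2 with y2 | y2
  · exact disjoint_left.1 d12 y1 y2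
  · exact disjoint_left.1 d1 y1 y2
  · exact disjoint_left.1 d2 y2 y1
  · exact eq_empty_iff_forall_notMem.1 hd y ⟨⟨hy, y1⟩, y2⟩

/-- boundary bumping: a continuum through `x` either stays in the closed set `Y` or has a subcontinuum in `Y`
from `x` to the closure of `K \ Y` (`cut_wire` in `K ∩ Y`). -/
theorem bump [T2Space X] {K Y : Set X} (hK : IsCompact K) (hK' : IsPreconnected K)
    (hY : IsClosed Y) {x : X} (hx : x ∈ K) (hxY : x ∈ Y) (hn : ¬ K ⊆ Y) :
    ∃ K' : Set X, IsCompact K' ∧ IsPreconnected K' ∧ K' ⊆ K ∩ Y ∧ x ∈ K' ∧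
      (K' ∩ closure (K \ Y)).Nonempty := by
  by_cases hc : x ∈ closure (K \ Y)
  · exact ⟨{x}, isCompact_singleton, isPreconnected_singleton, singleton_subset_iff.2 ⟨hx, hxY⟩, rfl,
      x, rfl, hc⟩
  obtain ⟨b, hb, hbY⟩ := not_subset.1 hn
  obtain ⟨K', h1, h2, h3, ⟨a, ha, rfl⟩, h5⟩ := contb_sub (A := {x}) (B := closure (K \ Y)) hK hK'
    isClosed_singleton hY isClosed_closure
    (fun y hy => by
      by_cases c : y ∈ Y
      · exact Or.inl (Or.inr c)
      · exact Or.inr (subset_closure ⟨hy, c⟩))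
    (eq_empty_of_forall_notMem fun y hy => hc (by have := hy.1.2; rw [← show y = x from this]; exact hy.2))
    ⟨x, hx, rfl⟩ ⟨b, hb, subset_closure ⟨hb, hbY⟩⟩
  exact ⟨K', h1, h2, h3, ha, h5⟩

/-- subcontinuum between two disjoint closed sets: if `K ⊆ A ∪ M ∪ B` (all closed), `K ∩ A ∩ B = ∅` and
`K` meets `A` and `B`, a subcontinuum of `K ∩ M` meets `A` and `B` (`cut_wire` in `K ∩ M`; otherwise
`X₁ ∪ (K ∩ A)`, `X₂ ∪ (K ∩ B)` disconnect `K`). -/
theorem subcont [T2Space X] {K A M B : Set X} (hK : IsCompact K) (hK' : IsPreconnected K)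
    (hA : IsClosed A) (hM : IsClosed M) (hB : IsClosed B) (hc : K ⊆ A ∪ M ∪ B)
    (hd : K ∩ A ∩ B = ∅) (ha : (K ∩ A).Nonempty) (hb : (K ∩ B).Nonempty) :
    ∃ K' : Set X, IsCompact K' ∧ IsPreconnected K' ∧ K' ⊆ K ∩ M ∧ (K' ∩ A).Nonempty ∧
      (K' ∩ B).Nonempty := by
  exact contb_sub hK hK' hA hM hB hc hd ha hb

end

variable {Z : Type} [MetricSpace Z]

theorem inter_sphere {K : Set Z} (hK : IsPreconnected K) {z : Z} {t : ℝ}
    (h1 : ∃ a ∈ K, dist a z ≤ t) (h2 : ∃ b ∈ K, t ≤ dist b z) : ∃ y ∈ K, dist y z = t := by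
  obtain ⟨a, ha, h1⟩ := h1
  obtain ⟨b, hb, h2⟩ := h2
  exact hK.intermediate_value ha hb (f := fun y => dist y z) (by fun_prop) ⟨h1, h2⟩

/-- truncation of a large preconnected set in a compact space -/
theorem trunc [CompactSpace Z] {E : Set Z} (hE : IsPreconnected E) {x : Z} (hx : x ∈ closure E)
    {r : ℝ} (hr : 0 ≤ r) (h : ∃ b ∈ E, r ≤ dist b x) :
    ∃ E' : Set Z, IsCompact E' ∧ IsPreconnected E' ∧ E' ⊆ closure E ∩ closedBall x r ∧ x ∈ E' ∧
      ∃ b ∈ E', dist b x = r := by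
  have hK : IsCompact (closure E) := isClosed_closure.isCompact
  by_cases c : closure E ⊆ closedBall x r
  · obtain ⟨b, hb, hbr⟩ := h
    exact ⟨closure E, hK, hE.closure, subset_inter subset_rfl c, hx, b, subset_closure hb,
      le_antisymm (c (subset_closure hb)) hbr⟩
  obtain ⟨K', h1, h2, h3, h4, b, hb, hb'⟩ := bump hK hE.closure isClosed_closedBall hx
    (mem_closedBall_self hr) c
  refine ⟨K', h1, h2, h3, h4, b, hb, le_antisymm (h3 hb).2 ?_⟩
  exact closure_minimal (t := {y | r ≤ dist y x}) (fun y hy => (not_le.1 fun k => hy.2 (mem_closedBall.2 k)).le)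
    (isClosed_le continuous_const (continuous_id.dist continuous_const)) hb'

/-- crossing of an annulus -/
theorem trunc_ann [CompactSpace Z] {E : Set Z} (hE : IsPreconnected E) {z : Z} {r₁ r₂ : ℝ}
    (hr : r₁ < r₂) (h1 : ∃ a ∈ E, dist a z ≤ r₁) (h2 : ∃ b ∈ E, r₂ ≤ dist b z) :
    ∃ E' : Set Z, IsCompact E' ∧ IsPreconnected E' ∧ E' ⊆ closure E ∧
      (∀ y ∈ E', r₁ ≤ dist y z ∧ dist y z ≤ r₂) ∧ (∃ a ∈ E', dist a z = r₁) ∧
      ∃ b ∈ E', dist b z = r₂ := by
  have cd : Continuous fun y : Z => dist y z := continuous_id.dist continuous_const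
  obtain ⟨a, ha, ha'⟩ := h1
  obtain ⟨b, hb, hb'⟩ := h2
  obtain ⟨K', k1, k2, k3, ⟨a', a1, a2⟩, b', b1, b2⟩ := subcont (K := closure E) (A := {y | dist y z ≤ r₁})
    (M := {y | r₁ ≤ dist y z ∧ dist y z ≤ r₂}) (B := {y | r₂ ≤ dist y z}) isClosed_closure.isCompact
    hE.closure (isClosed_le cd continuous_const)
    ((isClosed_le continuous_const cd).inter (isClosed_le cd continuous_const))
    (isClosed_le continuous_const cd)
    (fun y _ => by
      rcases le_total (dist y z) r₁ with c | c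
      · exact Or.inl (Or.inl c)
      rcases le_total (dist y z) r₂ with c' | c'
      · exact Or.inl (Or.inr ⟨c, c'⟩)
      · exact Or.inr c')
    (eq_empty_of_forall_notMem fun y hy => absurd (le_trans hy.2 hy.1.2) (not_le.2 hr))
    ⟨a, subset_closure ha, ha'⟩ ⟨b, subset_closure hb, hb'⟩
  exact ⟨K', k1, k2, fun y hy => (k3 hy).1, fun y hy => (k3 hy).2, ⟨a', a1, le_antisymm a2 (k3 a1).2.1⟩,
    b', b1, le_antisymm (k3 b1).2.2 b2⟩

theorem exists_far_of_diam {E : Set Z} (hb : IsBounded E) {R : ℝ} (hR : 0 < R) (h : R ≤ diam E)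
    (z : Z) : ∃ b ∈ E, R / 3 ≤ dist b z := by
  by_contra hn
  push Not at hn
  have := diam_le_of_subset_closedBall (show 0 ≤ R / 3 by linarith)
    fun b hb => mem_closedBall.2 (hn b hb).le
  linarith

/-- flow lemma -/
theorem RR.flow {ι : Type} {v : Z → ℝ} {U B : Set Z} (h : RR v U) (hv : Bdd v)
    (hB : IsPreconnected B) {z : Z} {t : ℝ} (hBt : B ⊆ ball z t) (hU : ball z t ⊆ U)
    (T : Finset ι) {c : ι → Set Z} (ho : ∀ i ∈ T, IsOpen (c i))
    (hc : ∀ y, dist y z = t → ∃ i ∈ T, y ∈ c i) : osc v B ≤ ∑ i ∈ T, osc v (c i) := by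
  refine osc_le (Finset.sum_nonneg fun i _ => osc_nonneg _ _) fun a ha b hb => ?_
  refine cut_sum T (fun i _ => hv.isBounded _) fun s hs => ?_
  obtain ⟨K, hK, hKf, ⟨x, hxK, hxB⟩, w, hwK, hw⟩ :=
    h.exists_conn hB (hBt.trans hU) ⟨⟨b, hb, hs.1.le⟩, a, ha, hs.2⟩
  obtain ⟨y, hyK, hy⟩ := inter_sphere hK (z := z) (t := t) ⟨x, hxK, (mem_ball.1 (hBt hxB)).le⟩
    ⟨w, hwK, not_lt.1 fun h' => hw (hU (mem_ball.2 h'))⟩
  obtain ⟨i, hi, hyi⟩ := hc y hy
  exact ⟨i, hi, cut_of_frontier (ho i hi) ⟨y, hyi, hKf hyK⟩⟩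

end Crest.Agent.R193
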