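import Crest.Agent.R193.C.Cont

/-!
# R193/C/En: the level energies
-/

set_option autoImplicit false
open Set Metric Filter Topology MeasureTheory

namespace Crest.Agent.R193

open Bornology

variable {Z : Type} [MetricSpace Z] (Γ : Cov Z)

theorem Cov.mem_cell (n : ℕ) (x : Z) : x ∈ Γ.cell n x :=
  Γ.sub n x (mem_ball_self (by have := sc_pos n; positivity))

theorem Cov.L_pos : 0 < Γ.L := lt_of_lt_of_le (by norm_num) Γ.two_le

/-- every point has a cell of the net containing a whole ball around it -/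
theorem Cov.exists_cell (n : ℕ) (z : Z) : ∃ x ∈ Γ.net n, dist z x < sc n ∧
    ball z (sc n) ⊆ Γ.cell n x ∧ Γ.cell n x ⊆ ball z ((Γ.L + 1) * sc n) := by
  obtain ⟨x, hx, hd⟩ := Γ.dense n z
  refine ⟨x, hx, hd, fun y hy => Γ.sub n x ?_, fun y hy => ?_⟩
  · rw [mem_ball] at hy ⊢
    linarith [dist_triangle y z x]
  · have := Γ.sup n x hy
    rw [mem_ball] at this ⊢
    have h2 := dist_triangle y x z
    rw [dist_comm x z] at h2
    linarith

/-- number of net points in a ball -/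
theorem Cov.card_le (R : ℝ) : ∃ N : ℕ, ∀ (n : ℕ) (x : Z) (T : Finset Z),
    (∀ a ∈ T, a ∈ Γ.net n ∧ dist a x < R * sc n) → T.card ≤ N := by
  obtain ⟨N, hN⟩ := Γ.dbl R
  exact ⟨N, fun n x T hT => hN x (sc n) T (sc_pos n) (fun a ha => (hT a ha).2)
    fun a ha b hb hab => Γ.sep n a (hT a ha).1 b (hT b hb).1 hab⟩

/-- connected sets at all radii -/
theorem Cov.llc1 (hd : ∀ a b : Z, dist a b ≤ 1) [PreconnectedSpace Z] (x : Z) {r : ℝ} (hr : 0 < r) :
    ∃ B : Set Z, IsOpen B ∧ IsPreconnected B ∧ ball x r ⊆ B ∧ B ⊆ ball x (Γ.L * r) := by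
  have hL := Γ.two_le
  rcases le_or_gt r 1 with h1 | h1
  · obtain ⟨n, hn1, hn2⟩ := exists_nat_pow_near_of_lt_one hr h1 (y := (1 / 2 : ℝ)) (by norm_num) (by norm_num)
    refine ⟨Γ.cell (n + 1) x, Γ.isOpen _ _, Γ.conn _ _, (ball_subset_ball ?_).trans (Γ.sub _ _),
      (Γ.sup _ _).trans (ball_subset_ball ?_)⟩
    · unfold sc
      rw [pow_succ]
      linarith
    · exact mul_le_mul_of_nonneg_left hn1.le (by linarith)
  · refine ⟨univ, isOpen_univ, isPreconnected_univ, subset_univ _, fun y _ => ?_⟩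
    rw [mem_ball]
    nlinarith [hd y x]

include Γ in
/-- maximal separated subsets: every set `A` inside `ball x (R ρ)` has a `ρ`-net of bounded size -/
theorem Cov.exists_net (R : ℝ) : ∃ N : ℕ, ∀ (x : Z) (ρ : ℝ) (A : Set Z), 0 < ρ →
    A ⊆ ball x (R * ρ) → ∃ T : Finset Z, T.card ≤ N ∧ (∀ a ∈ T, a ∈ A) ∧
      ∀ z ∈ A, ∃ a ∈ T, dist z a < ρ := by
  classical
  obtain ⟨N, hN⟩ := Γ.dbl R
  refine ⟨N, fun x ρ A hρ hA => ?_⟩
  set S : Set ℕ := {k | ∃ T : Finset Z, T.card = k ∧ (∀ a ∈ T, a ∈ A) ∧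
    ∀ a ∈ T, ∀ b ∈ T, a ≠ b → ρ ≤ dist a b} with hS
  have hb : ∀ k ∈ S, k ≤ N := by
    rintro k ⟨T, rfl, h1, h2⟩
    exact hN x ρ T hρ (fun a ha => hA (h1 a ha)) h2
  have hbdd : BddAbove S := ⟨N, hb⟩
  have hne : S.Nonempty := ⟨0, ∅, by simp, by simp, by simp⟩
  obtain ⟨T, hT, h1, h2⟩ := Nat.sSup_mem hne hbdd
  refine ⟨T, hb _ ⟨T, rfl, h1, h2⟩, h1, fun z hz => ?_⟩
  by_contra hc
  push Not at hc
  have hzT : z ∉ T := fun h => by
    have := hc z h
    rw [dist_self] at this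
    linarith
  have hmem : T.card + 1 ∈ S := by
    refine ⟨insert z T, Finset.card_insert_of_notMem hzT, fun a ha => ?_, fun a ha b hb hab => ?_⟩
    · rcases Finset.mem_insert.1 ha with rfl | ha
      exacts [hz, h1 a ha]
    · rcases Finset.mem_insert.1 ha with ha' | ha' <;> rcases Finset.mem_insert.1 hb with hb' | hb'
      · exact absurd (ha'.trans hb'.symm) hab
      · rw [ha']; exact hc b hb'
      · rw [hb', dist_comm]; exact hc a ha'
      · exact h2 a ha' b hb' hab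
  have := le_csSup hbdd hmem
  omega

theorem Cov.En_nonneg (n : ℕ) (v : Z → ℝ) (W : Set Z) : 0 ≤ Γ.En n v W := by
  unfold Cov.En
  exact Finset.sum_nonneg fun _ _ => sq_nonneg _

theorem Cov.En_mono (n : ℕ) (v : Z → ℝ) {W W' : Set Z} (h : W ⊆ W') :
    Γ.En n v W ≤ Γ.En n v W' := by
  classical
  unfold Cov.En
  refine Finset.sum_le_sum_of_subset_of_nonneg ?_ fun _ _ _ => sq_nonneg _
  intro x hx
  simp only [Finset.mem_filter] at hx ⊢
  exact ⟨hx.1, hx.2.trans h⟩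

theorem Cov.sum_le_En {n : ℕ} {v : Z → ℝ} {W : Set Z} (T : Finset Z)
    (h : ∀ x ∈ T, x ∈ Γ.net n ∧ Γ.cell n x ⊆ W) :
    ∑ x ∈ T, osc v (Γ.cell n x) ^ 2 ≤ Γ.En n v W := by
  classical
  unfold Cov.En
  refine Finset.sum_le_sum_of_subset_of_nonneg ?_ fun _ _ _ => sq_nonneg _
  intro x hx
  simp only [Finset.mem_filter]
  exact h x hx

theorem Cov.En_le_of_osc_le {n : ℕ} {v v' : Z → ℝ} {W : Set Z} {K : ℝ} (hK : 0 ≤ K)
    (h : ∀ x ∈ Γ.net n, Γ.cell n x ⊆ W → osc v (Γ.cell n x) ≤ K * osc v' (Γ.cell n x)) :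
    Γ.En n v W ≤ K ^ 2 * Γ.En n v' W := by
  classical
  unfold Cov.En
  rw [Finset.mul_sum]
  refine Finset.sum_le_sum fun x hx => ?_
  simp only [Finset.mem_filter] at hx
  rw [← mul_pow]
  exact pow_le_pow_left₀ (osc_nonneg _ _) (h x hx.1 hx.2) 2

theorem Cov.En_affine (n : ℕ) (v : Z → ℝ) (W : Set Z) (c : ℝ) {m : ℝ} (hm : 0 < m) :
    Γ.En n (fun z => (v z - c) / m) W = Γ.En n v W / m ^ 2 := by
  classical
  unfold Cov.En
  rw [Finset.sum_div]
  refine Finset.sum_congr rfl fun x _ => ?_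
  rw [osc_affine v _ c hm, div_pow]

/-- sums over regions of bounded multiplicity (every cell contains its centre) -/
theorem Cov.sum_En_le {ι : Type} (T : Finset ι) (n : ℕ) (v : Z → ℝ) {W : ι → Set Z} {W' : Set Z}
    {N : ℕ} (hW : ∀ i ∈ T, W i ⊆ W')
    (hN : ∀ (z : Z) (T' : Finset ι), T' ⊆ T → (∀ i ∈ T', z ∈ W i) → T'.card ≤ N) :
    ∑ i ∈ T, Γ.En n v (W i) ≤ N * Γ.En n v W' := by
  classical
  unfold Cov.En
  have key : ∀ i ∈ T, ∑ x ∈ (Γ.net n).filter (fun x => Γ.cell n x ⊆ W i), osc v (Γ.cell n x) ^ 2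
      = ∑ x ∈ (Γ.net n).filter (fun x => Γ.cell n x ⊆ W'),
        if Γ.cell n x ⊆ W i then osc v (Γ.cell n x) ^ 2 else 0 := by
    intro i hi
    rw [← Finset.sum_filter, Finset.filter_filter]
    refine Finset.sum_congr ?_ fun _ _ => rfl
    ext x
    simp only [Finset.mem_filter]
    exact ⟨fun h => ⟨h.1, h.2.trans (hW i hi), h.2⟩, fun h => ⟨h.1, h.2.2⟩⟩
  refine le_trans (le_of_eq (Finset.sum_congr rfl key)) ?_
  rw [Finset.sum_comm, Finset.mul_sum]
  refine Finset.sum_le_sum fun x _ => ?_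
  rw [← Finset.sum_filter, Finset.sum_const, nsmul_eq_mul]
  refine mul_le_mul_of_nonneg_right ?_ (sq_nonneg _)
  have := hN x (T.filter fun i => Γ.cell n x ⊆ W i) (Finset.filter_subset _ _)
    (fun i hi => (Finset.mem_filter.1 hi).2 (Γ.mem_cell n x))
  exact_mod_cast this

/-- balls of radius `R sc n` around net points of level `n` -/
theorem Cov.sum_En_ball_le (R : ℝ) : ∃ N : ℕ, ∀ (n k : ℕ) (v : Z → ℝ) (T : Finset Z) (W : Set Z),
    (∀ x ∈ T, x ∈ Γ.net n ∧ ball x (R * sc n) ⊆ W) →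
    ∑ x ∈ T, Γ.En k v (ball x (R * sc n)) ≤ N * Γ.En k v W := by
  obtain ⟨N, hN⟩ := Γ.card_le R
  refine ⟨N, fun n k v T W h => ?_⟩
  refine Γ.sum_En_le T k v (W := fun x => ball x (R * sc n)) (fun x hx => (h x hx).2) ?_
  intro z T' hT' hz
  refine hN n z T' fun a ha => ⟨(h a (hT' ha)).1, ?_⟩
  have := hz a ha
  rwa [mem_ball, dist_comm] at this

/-- a preconnected set of size `R sc k`: cover by the level-`k` cells whose centres are `sc k`-close to `B`,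
`abs_sub_le_sum`, Cauchy–Schwarz -/
theorem Cov.osc_sq_le (R : ℝ) : ∃ N : ℕ, ∀ (k : ℕ) (v : Z → ℝ) (B W : Set Z) (y : Z), Bdd v →
    IsPreconnected B → B ⊆ ball y (R * sc k) → (∀ z ∈ B, ball z ((Γ.L + 1) * sc k) ⊆ W) →
      osc v B ^ 2 ≤ N * Γ.En k v W := by
  classical
  obtain ⟨N, hN⟩ := Γ.card_le (R + 1)
  refine ⟨N, fun k v B W y hv hB hBy hW => ?_⟩
  set T : Finset Z := (Γ.net k).filter (fun x => ∃ z ∈ B, dist z x < sc k) with hT
  have hsc := sc_pos k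
  have hcard : T.card ≤ N := by
    refine hN k y T fun a ha => ?_
    obtain ⟨ha1, z, hz, hza⟩ := Finset.mem_filter.1 ha
    refine ⟨ha1, ?_⟩
    have h1 : dist z y < R * sc k := hBy hz
    have h2 := dist_triangle a z y
    rw [dist_comm a z] at h2
    linarith
  have hsub : ∀ x ∈ T, x ∈ Γ.net k ∧ Γ.cell k x ⊆ W := by
    intro a ha
    obtain ⟨ha1, z, hz, hza⟩ := Finset.mem_filter.1 ha
    refine ⟨ha1, fun w hw => hW z hz ?_⟩
    have h1 : dist w a < Γ.L * sc k := Γ.sup k a hw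
    have h2 := dist_triangle w a z
    rw [dist_comm a z] at h2
    rw [mem_ball]
    linarith
  have hosc : osc v B ≤ ∑ x ∈ T, osc v (Γ.cell k x) := by
    refine osc_le (Finset.sum_nonneg fun _ _ => osc_nonneg _ _) fun a ha b hb => ?_
    refine (le_abs_self _).trans (abs_sub_le_sum T (c := fun x => Γ.cell k x)
      (fun i _ => hv.isBounded _) (fun i _ => Γ.isOpen k i) hB ?_ ha hb)
    intro z hz
    obtain ⟨x, hx, hzx⟩ := Γ.dense k z
    refine ⟨x, Finset.mem_filter.2 ⟨hx, z, hz, hzx⟩, Γ.sub k x ?_⟩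
    rw [mem_ball]
    linarith
  calc osc v B ^ 2 ≤ (∑ x ∈ T, osc v (Γ.cell k x)) ^ 2 :=
        pow_le_pow_left₀ (osc_nonneg _ _) hosc 2
    _ ≤ T.card * ∑ x ∈ T, osc v (Γ.cell k x) ^ 2 := sq_sum_le_card_mul_sum_sq
    _ ≤ N * Γ.En k v W := by
        refine mul_le_mul (by exact_mod_cast hcard) (Γ.sum_le_En T hsub)
          (Finset.sum_nonneg fun _ _ => sq_nonneg _) (Nat.cast_nonneg _)

/-- pull-back of energies.  `f` is continuous and, on `W`, bi-Lipschitz up to the scale factor `sc a`: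
the image of a level-`j` cell `c ⊆ W` is preconnected and lies in `ball (f x) (K L sc (j+a))`; `osc_sq_le`;
the balls `ball (f x) ((K L + L + 2) sc (j+a))` have bounded multiplicity by the lower bound and `dbl`. -/
theorem Cov.En_comp (K : ℝ) : ∃ N : ℕ, ∀ (j a : ℕ) (v : Z → ℝ) (f : Z → Z) (W W' : Set Z), Bdd v →
    ContinuousOn f W →
    (∀ y ∈ W, ∀ z ∈ W, dist (f y) (f z) ≤ K * sc a * dist y z) →
    (∀ y ∈ W, ∀ z ∈ W, sc a * dist y z ≤ K * dist (f y) (f z)) →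
    (∀ y ∈ W, ball (f y) ((Γ.L + 1) * sc (j + a)) ⊆ W') →
      Γ.En j (fun y => v (f y)) W ≤ N * Γ.En (j + a) v W' := by
  classical
  obtain ⟨K', hKK, hK⟩ : ∃ K' : ℝ, K ≤ K' ∧ 0 < K' := ⟨max K 1, le_max_left _ _, by positivity⟩
  have hL := Γ.L_pos
  obtain ⟨N₁, h₁⟩ := Γ.osc_sq_le (K' * Γ.L)
  obtain ⟨N₂, h₂⟩ := Γ.card_le (K' * (2 * (K' * Γ.L + (Γ.L + 1))))
  refine ⟨N₁ * N₂, fun j a v f W W' hv hf hu hl hW => ?_⟩
  have ha := sc_pos a
  have hj := sc_pos j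
  have hs : sc (j + a) = sc j * sc a := pow_add _ _ _
  set T := (Γ.net j).filter (fun x => Γ.cell j x ⊆ W) with hT
  set U : Z → Set Z := fun x => W' ∩ ball (f x) ((K' * Γ.L + (Γ.L + 1)) * sc (j + a)) with hU
  have hc : ∀ x ∈ T, Γ.cell j x ⊆ W := fun x hx => (Finset.mem_filter.1 hx).2
  have hxW : ∀ x ∈ T, x ∈ W := fun x hx => hc x hx (Γ.mem_cell j x)
  have e1 : ∀ x ∈ T, osc (fun y => v (f y)) (Γ.cell j x) ^ 2 ≤ N₁ * Γ.En (j + a) v (U x) := fun x hx => by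
    have hB : f '' Γ.cell j x ⊆ ball (f x) (K' * Γ.L * sc (j + a)) := by
      rintro _ ⟨y, hy, rfl⟩
      have h1 := hu y (hc x hx hy) x (hxW x hx)
      have h2 : dist y x < Γ.L * sc j := Γ.sup j x hy
      have h3 : K * sc a * dist y x ≤ K' * sc a * dist y x := by gcongr
      have h4 : K' * sc a * dist y x < K' * sc a * (Γ.L * sc j) := by gcongr
      rw [mem_ball, hs]
      nlinarith
    have := h₁ (j + a) v (f '' Γ.cell j x) (U x) (f x) hv ((Γ.conn j x).image f (hf.mono (hc x hx))) hB ?_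
    · simpa only [osc, image_image] using this
    · rintro _ ⟨y, hy, rfl⟩
      refine subset_inter (hW y (hc x hx hy)) (ball_subset_ball' ?_)
      have := mem_ball.1 (hB (mem_image_of_mem f hy))
      nlinarith
  have e2 : ∑ x ∈ T, Γ.En (j + a) v (U x) ≤ N₂ * Γ.En (j + a) v W' := by
    refine Γ.sum_En_le T _ v (fun x _ => inter_subset_left) fun z T' hT' hz => ?_
    rcases T'.eq_empty_or_nonempty with rfl | ⟨x₀, hx₀⟩
    · simp
    refine h₂ j x₀ T' fun x hx => ⟨(Finset.mem_filter.1 (hT' hx)).1, ?_⟩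
    have h1 := hl x (hxW x (hT' hx)) x₀ (hxW x₀ (hT' hx₀))
    have h2 := mem_ball.1 (hz x hx).2
    have h3 := mem_ball.1 (hz x₀ hx₀).2
    have h4 := dist_triangle_left (f x) (f x₀) z
    have h5 : K * dist (f x) (f x₀) ≤ K' * dist (f x) (f x₀) := by gcongr
    have h6 : K' * dist (f x) (f x₀) < K' * (2 * ((K' * Γ.L + (Γ.L + 1)) * sc (j + a))) := by
      gcongr
      linarith
    rw [hs] at h6
    refine lt_of_mul_lt_mul_left (a := sc a) ?_ ha.le
    nlinarith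
  calc Γ.En j (fun y => v (f y)) W = ∑ x ∈ T, osc (fun y => v (f y)) (Γ.cell j x) ^ 2 := by
        rw [Cov.En]
    _ ≤ ∑ x ∈ T, N₁ * Γ.En (j + a) v (U x) := Finset.sum_le_sum e1
    _ ≤ N₁ * (N₂ * Γ.En (j + a) v W') := by
        rw [← Finset.mul_sum]
        gcongr
    _ = _ := by push_cast; ring

open Classical in
/-- covering a sphere by cells `s` levels down -/
theorem Cov.sphere_cover (R : ℝ) : ∃ N : ℕ, ∀ (k : ℕ) (z : Z) (t : ℝ), t ≤ R * sc k →
    ∃ T : Finset Z, T.card ≤ N ∧ (∀ x ∈ T, x ∈ Γ.net k ∧ |dist x z - t| < sc k) ∧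
      ∀ y, dist y z = t → ∃ x ∈ T, y ∈ Γ.cell k x := by
  obtain ⟨N, hN⟩ := Γ.card_le (R + 1)
  refine ⟨N, fun k z t ht => ⟨(Γ.net k).filter fun x => |dist x z - t| < sc k, hN k z _ fun a ha => ?_,
    fun x hx => Finset.mem_filter.1 hx, fun y hy => ?_⟩⟩
  · obtain ⟨h1, h2⟩ := Finset.mem_filter.1 ha
    exact ⟨h1, by linarith [(abs_lt.1 h2).2]⟩
  · obtain ⟨x, hx, hd⟩ := Γ.dense k y
    refine ⟨x, Finset.mem_filter.2 ⟨hx, ?_⟩, Γ.sub k x ?_⟩
    · rw [← hy]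
      refine lt_of_le_of_lt (abs_dist_sub_le x y z) ?_
      rwa [dist_comm]
    · rw [mem_ball]
      linarith [sc_pos k]

end Crest.Agent.R193
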