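import Crest.Agent.R193.B.Ad

/-!
# R193/C/Osc: oscillation, cuts
All statements are for functions bounded on the sets involved (`Bornology.IsBounded (v '' B)`);
`Bdd.isBounded` provides this for globally bounded functions.
-/

set_option autoImplicit false
open Set Metric Filter Topology MeasureTheory

namespace Crest.Agent.R193

open Bornology

variable {X : Type}

theorem Bdd.isBounded {v : X → ℝ} (h : Bdd v) (B : Set X) : IsBounded (v '' B) := by
  obtain ⟨M, hM⟩ := h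
  refine (isBounded_Icc (-M) M).subset ?_
  rintro _ ⟨z, -, rfl⟩
  exact abs_le.1 (hM z)

theorem osc_nonneg (v : X → ℝ) (B : Set X) : 0 ≤ osc v B := diam_nonneg

theorem abs_sub_le_osc {v : X → ℝ} {B : Set X} (h : IsBounded (v '' B)) {a b : X} (ha : a ∈ B)
    (hb : b ∈ B) : |v a - v b| ≤ osc v B := by
  exact dist_le_diam_of_mem h (mem_image_of_mem v ha) (mem_image_of_mem v hb)

theorem osc_le {v : X → ℝ} {B : Set X} {M : ℝ} (hM : 0 ≤ M)
    (h : ∀ a ∈ B, ∀ b ∈ B, v a - v b ≤ M) : osc v B ≤ M := by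
  refine diam_le_of_forall_dist_le hM ?_
  rintro _ ⟨a, ha, rfl⟩ _ ⟨b, hb, rfl⟩
  rw [Real.dist_eq, abs_le]
  exact ⟨by linarith [h b hb a ha], h a ha b hb⟩

theorem exists_lt_of_lt_osc {v : X → ℝ} {B : Set X} {M : ℝ} (hM : 0 ≤ M) (h : M < osc v B) :
    ∃ a ∈ B, ∃ b ∈ B, M < v b - v a := by
  by_contra hc
  push Not at hc
  exact absurd (osc_le hM fun a ha b hb => hc b hb a ha) (not_le.2 h)

theorem osc_mono {v : X → ℝ} {A B : Set X} (h : IsBounded (v '' B)) (hAB : A ⊆ B) :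
    osc v A ≤ osc v B := by
  exact diam_mono (image_mono hAB) h

theorem osc_congr {v v' : X → ℝ} {B : Set X} (h : EqOn v v' B) : osc v B = osc v' B := by
  rw [osc, osc, h.image_eq]

theorem osc_comp {Y : Type} (v : X → ℝ) (f : Y → X) (B : Set Y) :
    osc (fun y => v (f y)) B = osc v (f '' B) := by
  rw [osc, osc, image_image]

open scoped Pointwise in
theorem osc_affine (v : X → ℝ) (B : Set X) (c : ℝ) {m : ℝ} (hm : 0 < m) :
    osc (fun z => (v z - c) / m) B = osc v B / m := by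
  have h1 : (fun z => (v z - c) / m) '' B = m⁻¹ • ((fun t => t + -c) '' (v '' B)) := by
    rw [← image_smul, image_image, image_image]
    exact image_congr fun z _ => by rw [smul_eq_mul, div_eq_inv_mul, sub_eq_add_neg]
  rw [osc, osc, h1, diam_smul₀, (isometry_add_right (-c)).diam_image, Real.norm_of_nonneg (by positivity),
    div_eq_inv_mul]

/-- Lipschitz functions of `v` -/
theorem osc_lip {v : X → ℝ} {B : Set X} (h : IsBounded (v '' B)) {f : ℝ → ℝ} {K : ℝ} (hK : 0 ≤ K)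
    (hf : ∀ s t, |f s - f t| ≤ K * |s - t|) : osc (fun z => f (v z)) B ≤ K * osc v B := by
  exact osc_le (mul_nonneg hK (osc_nonneg _ _)) fun a ha b hb => (le_abs_self _).trans
    ((hf _ _).trans (mul_le_mul_of_nonneg_left (abs_sub_le_osc h ha hb) hK))

theorem osc_add_le {v v' : X → ℝ} {B : Set X} (h : IsBounded (v '' B)) (h' : IsBounded (v' '' B)) :
    osc (fun z => v z + v' z) B ≤ osc v B + osc v' B := by
  refine osc_le (add_nonneg (osc_nonneg _ _) (osc_nonneg _ _)) fun a ha b hb => ?_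
  linarith [(abs_le.1 (abs_sub_le_osc h ha hb)).2, (abs_le.1 (abs_sub_le_osc h' ha hb)).2]

/-- uniformly close functions -/
theorem osc_le_add {v v' : X → ℝ} {B : Set X} (h : IsBounded (v' '' B)) {ε : ℝ} (hε : 0 ≤ ε)
    (hv : ∀ z ∈ B, |v z - v' z| ≤ ε) : osc v B ≤ osc v' B + 2 * ε := by
  refine osc_le (add_nonneg (osc_nonneg _ _) (by linarith)) fun a ha b hb => ?_
  linarith [(abs_le.1 (abs_sub_le_osc h ha hb)).2, (abs_le.1 (hv a ha)).2, (abs_le.1 (hv b hb)).1]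

/-- lower semicontinuity under pointwise convergence -/
theorem osc_le_of_tendsto {ι : Type} {l : Filter ι} [l.NeBot] {v : ι → X → ℝ} {u : X → ℝ}
    {B : Set X} {M : ℝ} (hb : ∀ᶠ i in l, IsBounded (v i '' B))
    (hu : ∀ z ∈ B, Tendsto (fun i => v i z) l (𝓝 (u z))) (hM : ∀ᶠ i in l, osc (v i) B ≤ M) :
    osc u B ≤ M := by
  obtain ⟨i, hi⟩ := hM.exists
  refine osc_le ((osc_nonneg _ _).trans hi) fun a ha b hb' => le_of_tendsto ((hu a ha).sub (hu b hb')) ?_
  filter_upwards [hb, hM] with j h1 h2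
  exact (abs_le.1 (abs_sub_le_osc h1 ha hb')).2.trans h2

/-- `B` is cut by the level `s` -/
def Cut (v : X → ℝ) (B : Set X) (s : ℝ) : Prop := (∃ a ∈ B, v a ≤ s) ∧ ∃ b ∈ B, s < v b

/-- the set of levels cutting `B` is order connected, of length `osc v B` -/
theorem volume_cut {v : X → ℝ} {B : Set X} (h : IsBounded (v '' B)) :
    MeasurableSet {s | Cut v B s} ∧ volume {s | Cut v B s} = ENNReal.ofReal (osc v B) := by
  refine ⟨Set.OrdConnected.measurableSet ⟨fun s hs t ht r hr => ?_⟩, ?_⟩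
  · obtain ⟨⟨a, ha, ha'⟩, -⟩ := hs
    obtain ⟨-, b, hb, hb'⟩ := ht
    exact ⟨⟨a, ha, ha'.trans hr.1⟩, b, hb, hr.2.trans_lt hb'⟩
  rcases B.eq_empty_or_nonempty with rfl | hne
  · simp [Cut, osc]
  have hne' : (v '' B).Nonempty := hne.image v
  unfold osc
  rw [Real.diam_eq h]
  apply le_antisymm
  · rw [← Real.volume_Icc]
    refine measure_mono ?_
    rintro s ⟨⟨a, ha, ha'⟩, b, hb, hb'⟩
    exact ⟨(csInf_le h.bddBelow (mem_image_of_mem v ha)).trans ha',
      hb'.le.trans (le_csSup h.bddAbove (mem_image_of_mem v hb))⟩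
  · rw [← Real.volume_Ioo]
    refine measure_mono fun s hs => ?_
    obtain ⟨_, ⟨a, ha, rfl⟩, ha'⟩ := exists_lt_of_csInf_lt hne' hs.1
    obtain ⟨_, ⟨b, hb, rfl⟩, hb'⟩ := exists_lt_of_lt_csSup hne' hs.2
    exact ⟨⟨a, ha, ha'.le⟩, b, hb, hb'⟩

/-- if every level in `(α, β)` cuts one of the sets, the oscillations add up to `β - α` -/
theorem cut_sum {ι : Type} (T : Finset ι) {c : ι → Set X} {v : X → ℝ}
    (h : ∀ i ∈ T, IsBounded (v '' c i)) {α β : ℝ} (hc : ∀ s ∈ Ioo α β, ∃ i ∈ T, Cut v (c i) s) :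
    β - α ≤ ∑ i ∈ T, osc v (c i) := by
  have h1 : volume (Ioo α β) ≤ ∑ i ∈ T, volume {s | Cut v (c i) s} :=
    (measure_mono fun s hs => by
      obtain ⟨i, hi, hi'⟩ := hc s hs
      exact mem_biUnion (Finset.mem_coe.2 hi) hi').trans (measure_biUnion_finset_le T _)
  rw [Real.volume_Ioo, Finset.sum_congr rfl fun i hi => (volume_cut (h i hi)).2,
    ← ENNReal.ofReal_sum_of_nonneg fun i _ => osc_nonneg v (c i)] at h1
  exact (ENNReal.ofReal_le_ofReal_iff (Finset.sum_nonneg fun i _ => osc_nonneg v (c i))).1 h1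

/-- two-dimensional version (product measure on `ℝ × ℝ`) -/
theorem cut_sum₂ {ι : Type} (T : Finset ι) {c : ι → Set X} {v v' : X → ℝ}
    (h : ∀ i ∈ T, IsBounded (v '' c i)) (h' : ∀ i ∈ T, IsBounded (v' '' c i)) {α β α' β' : ℝ}
    (hαβ : α ≤ β) (hαβ' : α' ≤ β')
    (hc : ∀ s ∈ Ioo α β, ∀ t ∈ Ioo α' β', ∃ i ∈ T, Cut v (c i) s ∧ Cut v' (c i) t) :
    (β - α) * (β' - α') ≤ ∑ i ∈ T, osc v (c i) * osc v' (c i) := by
  have h1 : (volume.prod volume) (Ioo α β ×ˢ Ioo α' β') ≤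
      ∑ i ∈ T, (volume.prod volume) ({s | Cut v (c i) s} ×ˢ {t | Cut v' (c i) t}) :=
    (measure_mono fun s hs => by
      obtain ⟨i, hi, hi'⟩ := hc s.1 hs.1 s.2 hs.2
      exact mem_biUnion (Finset.mem_coe.2 hi) hi').trans (measure_biUnion_finset_le T _)
  have h2 : ∀ i ∈ T, (volume.prod volume) ({s | Cut v (c i) s} ×ˢ {t | Cut v' (c i) t}) =
      ENNReal.ofReal (osc v (c i) * osc v' (c i)) := fun i hi => by
    rw [Measure.prod_prod, (volume_cut (h i hi)).2, (volume_cut (h' i hi)).2,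
      ENNReal.ofReal_mul (osc_nonneg _ _)]
  have h3 : ∀ i ∈ T, 0 ≤ osc v (c i) * osc v' (c i) := fun i _ =>
    mul_nonneg (osc_nonneg _ _) (osc_nonneg _ _)
  rw [Measure.prod_prod, Real.volume_Ioo, Real.volume_Ioo, Finset.sum_congr rfl h2,
    ← ENNReal.ofReal_sum_of_nonneg h3, ← ENNReal.ofReal_mul (sub_nonneg.2 hαβ)] at h1
  exact (ENNReal.ofReal_le_ofReal_iff (Finset.sum_nonneg h3)).1 h1

variable [TopologicalSpace X]

theorem Cut.inter_frontier {v : X → ℝ} {B : Set X} {s : ℝ} (h : Cut v B s)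
    (hB : IsPreconnected B) : (B ∩ frontier {z | s < v z}).Nonempty := by
  by_contra hne
  rw [not_nonempty_iff_eq_empty, ← disjoint_iff_inter_eq_empty, ← subset_compl_iff_disjoint_right,
    compl_frontier_eq_union_interior] at hne
  obtain ⟨⟨a, ha, ha'⟩, b, hb, hb'⟩ := h
  rcases hB.subset_or_subset isOpen_interior isOpen_interior
    (disjoint_compl_right.mono interior_subset interior_subset) hne with h1 | h1
  · exact absurd (interior_subset (h1 ha)) (not_lt.2 ha')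
  · exact absurd hb' (interior_subset (h1 hb))

theorem cut_of_frontier {v : X → ℝ} {B : Set X} {s : ℝ} (hB : IsOpen B)
    (h : (B ∩ frontier {z | s < v z}).Nonempty) : Cut v B s := by
  obtain ⟨x, hx, hx'⟩ := h
  rw [frontier_eq_closure_inter_closure] at hx'
  obtain ⟨b, hb, hb'⟩ := mem_closure_iff.1 hx'.1 B hB hx
  obtain ⟨a, ha, ha'⟩ := mem_closure_iff.1 hx'.2 B hB hx
  exact ⟨⟨a, ha, not_lt.1 ha'⟩, b, hb, hb'⟩

/-- a preconnected set covered by finitely many open sets -/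
theorem abs_sub_le_sum {ι : Type} (T : Finset ι) {c : ι → Set X} {v : X → ℝ} {B : Set X}
    (h : ∀ i ∈ T, IsBounded (v '' c i)) (ho : ∀ i ∈ T, IsOpen (c i)) (hB : IsPreconnected B)
    (hc : ∀ z ∈ B, ∃ i ∈ T, z ∈ c i) {a b : X} (ha : a ∈ B) (hb : b ∈ B) :
    |v a - v b| ≤ ∑ i ∈ T, osc v (c i) := by
  have key : ∀ a ∈ B, ∀ b ∈ B, v b - v a ≤ ∑ i ∈ T, osc v (c i) := fun a ha b hb => by
    refine cut_sum T h fun s hs => ?_
    obtain ⟨x, hx, hx'⟩ := Cut.inter_frontier (v := v) (s := s) ⟨⟨a, ha, hs.1.le⟩, b, hb, hs.2⟩ hB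
    obtain ⟨i, hi, hi'⟩ := hc x hx
    exact ⟨i, hi, cut_of_frontier (ho i hi) ⟨x, hi', hx'⟩⟩
  rw [abs_sub_le_iff]
  exact ⟨key b hb a ha, key a ha b hb⟩

end Crest.Agent.R193
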